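import Mathlib

/-!
# P256: hyperbolic polynomials, hyperbolicity cones, spectrahedral shadows

Variables are indexed by an arbitrary finite type `σ` (so `ℝ^n` is `σ → ℝ` with `n = card σ`).
-/

namespace Vale.Agent.Lib.P256

open MvPolynomial Matrix

variable {σ : Type}

/-- `p` is hyperbolic with respect to `e`: `p` is homogeneous, `p e > 0`, and for every real point
`x` all complex roots of `t ↦ p (t e - x)` are real. -/
def IsHyperbolic (p : MvPolynomial σ ℝ) (e : σ → ℝ) : Prop :=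
  (∃ d : ℕ, p.IsHomogeneous d) ∧ 0 < eval e p ∧
    ∀ (x : σ → ℝ) (z : ℂ), aeval (fun i => z * (e i : ℂ) - (x i : ℂ)) p = 0 → z.im = 0

/-- The closed hyperbolicity cone `K(p,e)`: all roots of `t ↦ p (t e - x)` are nonnegative. -/
def hypCone (p : MvPolynomial σ ℝ) (e : σ → ℝ) : Set (σ → ℝ) :=
  {x | ∀ t : ℝ, eval (fun i => t * e i - x i) p = 0 → 0 ≤ t}

/-- `S` is a spectrahedral shadow: `S = {x | ∃ u, A0 + ∑ x_i A_i + ∑ u_j B_j ⪰ 0}` with finitely
many real symmetric matrices of one finite size (rows and columns indexed by a finite type `ι`,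
lifting variables indexed by a finite type `κ`). -/
def IsShadow [Fintype σ] (S : Set (σ → ℝ)) : Prop :=
  ∃ (ι κ : Type) (_ : Fintype ι) (_ : Fintype κ) (A0 : Matrix ι ι ℝ) (A : σ → Matrix ι ι ℝ)
    (B : κ → Matrix ι ι ℝ),
    A0.IsSymm ∧ (∀ i, (A i).IsSymm) ∧ (∀ j, (B j).IsSymm) ∧
      S = {x | ∃ u : κ → ℝ, (A0 + ∑ i, x i • A i + ∑ j, u j • B j).PosSemidef}

/-- The restriction of `p(x,y)` to the points `y = s * (j0-th unit vector)`, a polynomial in
`(x,s)`. -/
noncomputable def slice {ρ : Type} [DecidableEq ρ] (j0 : ρ) (p : MvPolynomial (σ ⊕ ρ) ℝ) :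
    MvPolynomial (σ ⊕ Unit) ℝ :=
  aeval (Sum.elim (fun i => X (Sum.inl i))
    (fun j => if j = j0 then X (Sum.inr ()) else 0)) p

end Vale.Agent.Lib.P256
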