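import Vale.Agent.Lib.P256.Defs

/-! # P256: rotation invariant hyperbolic polynomials reduce to their slice -/

namespace Vale.Agent.Lib.P256
open MvPolynomial Matrix
variable {σ ρ : Type}


theorem aeval_slice {R : Type} [CommRing R] [Algebra ℝ R] [DecidableEq ρ] (j0 : ρ)
    (p : MvPolynomial (σ ⊕ ρ) ℝ) (v : σ ⊕ Unit → R) :
    aeval v (slice j0 p) =
      aeval (Sum.elim (fun i => v (Sum.inl i)) (fun j => if j = j0 then v (Sum.inr ()) else 0)) p := by
  unfold slice
  have := aeval_bind₁ v (Sum.elim (fun i => X (Sum.inl i))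
    (fun j => if j = j0 then X (Sum.inr ()) else (0 : MvPolynomial (σ ⊕ Unit) ℝ))) p
  rw [show (aeval (Sum.elim (fun i => X (Sum.inl i))
    (fun j => if j = j0 then X (Sum.inr ()) else (0 : MvPolynomial (σ ⊕ Unit) ℝ))) p) = bind₁ (Sum.elim (fun i => X (Sum.inl i))
    (fun j => if j = j0 then X (Sum.inr ()) else (0 : MvPolynomial (σ ⊕ Unit) ℝ))) p from rfl, this]
  congr 1
  congr 1
  funext i
  rcases i with i | j
  · simp
  · by_cases h : j = j0 <;> simp [h]

theorem eval_slice [DecidableEq ρ] (j0 : ρ)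
    (p : MvPolynomial (σ ⊕ ρ) ℝ) (v : σ ⊕ Unit → ℝ) :
    eval v (slice j0 p) =
      eval (Sum.elim (fun i => v (Sum.inl i)) (fun j => if j = j0 then v (Sum.inr ()) else 0)) p :=
  aeval_slice j0 p v

theorem slice_isHomogeneous [DecidableEq ρ] (j0 : ρ)
    (p : MvPolynomial (σ ⊕ ρ) ℝ) {d : ℕ} (h : p.IsHomogeneous d) : (slice j0 p).IsHomogeneous d := by
  have := h.aeval (S := ℝ) (n := 1) (Sum.elim (fun i => X (Sum.inl i))
    (fun j => if j = j0 then X (Sum.inr ()) else (0 : MvPolynomial (σ ⊕ Unit) ℝ))) (by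
      rintro (i | j)
      · exact isHomogeneous_X _ _
      · by_cases hj : j = j0
        · simp only [Sum.elim_inr, hj, if_true]; exact isHomogeneous_X _ _
        · simp only [Sum.elim_inr, hj, if_false]; exact isHomogeneous_zero _ _ _)
  simpa [slice] using this



theorem posSemidef_fromBlocks_diag {ι ι' : Type} [Fintype ι] [Fintype ι']
    (A : Matrix ι ι ℝ) (D : Matrix ι' ι' ℝ) :
    (fromBlocks A 0 0 D).PosSemidef ↔ A.PosSemidef ∧ D.PosSemidef := by
  constructor
  · intro h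
    refine ⟨?_, ?_⟩
    · have := h.submatrix (Sum.inl : ι → ι ⊕ ι')
      have e : (fromBlocks A 0 0 D).submatrix Sum.inl Sum.inl = A := by
        ext i j; simp
      rwa [e] at this
    · have := h.submatrix (Sum.inr : ι' → ι ⊕ ι')
      have e : (fromBlocks A 0 0 D).submatrix Sum.inr Sum.inr = D := by
        ext i j; simp
      rwa [e] at this
  · rintro ⟨hA, hD⟩
    refine PosSemidef.of_dotProduct_mulVec_nonneg ?_ ?_
    · exact IsHermitian.fromBlocks hA.1 (by simp) hD.1
    · intro x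
      have h1 := hA.dotProduct_mulVec_nonneg (fun i => x (Sum.inl i))
      have h2 := hD.dotProduct_mulVec_nonneg (fun i => x (Sum.inr i))
      have : star x ⬝ᵥ (fromBlocks A 0 0 D *ᵥ x) =
          star (fun i => x (Sum.inl i)) ⬝ᵥ (A *ᵥ (fun i => x (Sum.inl i))) +
          star (fun i => x (Sum.inr i)) ⬝ᵥ (D *ᵥ (fun i => x (Sum.inr i))) := by
        simp [dotProduct, mulVec, Fintype.sum_sum_type, fromBlocks]
      rw [this]
      exact add_nonneg h1 h2

/-- the arrow matrix of the Lorentz cone -/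
def arrow [DecidableEq ρ] (s : ℝ) (y : ρ → ℝ) : Matrix (ρ ⊕ Unit) (ρ ⊕ Unit) ℝ :=
  fromBlocks (s • (1 : Matrix ρ ρ ℝ)) (Matrix.of fun j _ => y j) (Matrix.of fun _ j => y j)
    (s • (1 : Matrix Unit Unit ℝ))

theorem arrow_quad [Fintype ρ] [DecidableEq ρ] (s : ℝ) (y : ρ → ℝ) (v : ρ ⊕ Unit → ℝ) :
    star v ⬝ᵥ (arrow s y *ᵥ v) =
      s * ∑ j, v (Sum.inl j) ^ 2 + 2 * v (Sum.inr ()) * ∑ j, y j * v (Sum.inl j)
        + s * v (Sum.inr ()) ^ 2 := by
  simp only [dotProduct, mulVec, Fintype.sum_sum_type, arrow, fromBlocks_apply₁₁,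
    fromBlocks_apply₁₂, fromBlocks_apply₂₁, fromBlocks_apply₂₂, Matrix.smul_apply, Matrix.one_apply,
    Matrix.of_apply, Finset.univ_unique, Finset.sum_singleton, Pi.star_apply, star_trivial,
    smul_eq_mul]
  simp only [mul_ite, mul_one, mul_zero, ite_mul, zero_mul, Finset.sum_ite_eq, Finset.mem_univ,
    if_true, mul_add, Finset.sum_add_distrib, Finset.mul_sum]
  have hd : (default : Unit) = () := rfl
  have h1 : ∀ x, v (Sum.inl x) * (s * v (Sum.inl x)) = s * v (Sum.inl x) ^ 2 := fun x => by ring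
  have h2 : ∀ x, 2 * v (Sum.inr ()) * (y x * v (Sum.inl x)) =
      v (Sum.inl x) * (y x * v (Sum.inr ())) + v (Sum.inr ()) * (y x * v (Sum.inl x)) :=
    fun x => by ring
  simp only [hd, h1, h2, Finset.sum_add_distrib]
  ring

theorem arrow_isSymm [DecidableEq ρ] (s : ℝ) (y : ρ → ℝ) : (arrow s y).IsSymm := by
  unfold arrow
  refine IsSymm.fromBlocks ?_ ?_ ?_
  · simp [IsSymm]
  · ext i j; simp
  · simp [IsSymm]

theorem arrow_posSemidef_iff [Fintype ρ] [DecidableEq ρ] (s : ℝ) (y : ρ → ℝ) :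
    (arrow s y).PosSemidef ↔ 0 ≤ s ∧ ∑ j, y j ^ 2 ≤ s ^ 2 := by
  constructor
  · intro h
    have hs : 0 ≤ s := by
      have := h.diag_nonneg (i := Sum.inr ())
      simpa [arrow] using this
    refine ⟨hs, ?_⟩
    rcases hs.eq_or_lt with h0 | hpos
    · have := h.dotProduct_mulVec_nonneg (Sum.elim y (fun _ => -1))
      rw [arrow_quad] at this
      simp only [Sum.elim_inl, Sum.elim_inr, ← h0] at this
      have e : ∑ j, y j * y j = ∑ j, y j ^ 2 := Finset.sum_congr rfl fun j _ => by ring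
      rw [e] at this
      rw [← h0]
      nlinarith
    · have := h.dotProduct_mulVec_nonneg (Sum.elim y (fun _ => -s))
      rw [arrow_quad] at this
      simp only [Sum.elim_inl, Sum.elim_inr] at this
      have e : ∑ j, y j * y j = ∑ j, y j ^ 2 := Finset.sum_congr rfl fun j _ => by ring
      rw [e] at this
      have h3 : 0 ≤ s * (s ^ 2 - ∑ j, y j ^ 2) := by nlinarith
      have := nonneg_of_mul_nonneg_right h3 hpos
      linarith
  · rintro ⟨hs, hy⟩
    refine PosSemidef.of_dotProduct_mulVec_nonneg ?_ ?_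
    · exact (arrow_isSymm s y)
    · intro v
      rw [arrow_quad]
      rcases hs.eq_or_lt with h0 | hpos
      · have hy0 : ∀ j, y j = 0 := by
          have h4 : ∑ j, y j ^ 2 = 0 := by
            refine le_antisymm ?_ (Finset.sum_nonneg fun j _ => sq_nonneg _)
            rw [← h0] at hy; simpa using hy
          intro j
          have := (Finset.sum_eq_zero_iff_of_nonneg (fun j _ => sq_nonneg (y j))).1 h4 j
            (Finset.mem_univ j)
          exact pow_eq_zero_iff (two_ne_zero) |>.1 this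
        simp [← h0, hy0]
      · set c := v (Sum.inr ()) with hc
        have key : s * (s * ∑ j, v (Sum.inl j) ^ 2 + 2 * c * ∑ j, y j * v (Sum.inl j) + s * c ^ 2) =
            ∑ j, (s * v (Sum.inl j) + c * y j) ^ 2 + c ^ 2 * (s ^ 2 - ∑ j, y j ^ 2) := by
          have : ∀ j, (s * v (Sum.inl j) + c * y j) ^ 2 =
              s ^ 2 * v (Sum.inl j) ^ 2 + 2 * s * c * (y j * v (Sum.inl j)) + c ^ 2 * y j ^ 2 :=
            fun j => by ring
          simp only [this, Finset.sum_add_distrib, ← Finset.mul_sum]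
          ring
        have h5 : 0 ≤ s * (s * ∑ j, v (Sum.inl j) ^ 2 + 2 * c * ∑ j, y j * v (Sum.inl j)
            + s * c ^ 2) := by
          rw [key]
          refine add_nonneg (Finset.sum_nonneg fun j _ => sq_nonneg _) ?_
          exact mul_nonneg (sq_nonneg _) (by linarith)
        exact nonneg_of_mul_nonneg_right h5 hpos



theorem IsShadow.convex [Fintype σ] {S : Set (σ → ℝ)} (h : IsShadow S) : Convex ℝ S := by
  obtain ⟨ι, κ, _, _, A0, A, B, -, -, -, rfl⟩ := h
  rintro x ⟨u, hu⟩ x' ⟨u', hu'⟩ a b ha hb hab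
  refine ⟨a • u + b • u', ?_⟩
  have e : A0 + ∑ i, (a • x + b • x') i • A i + ∑ j, (a • u + b • u') j • B j =
     a • (A0 + ∑ i, x i • A i + ∑ j, u j • B j) + b • (A0 + ∑ i, x' i • A i + ∑ j, u' j • B j) := by
    have h0 : A0 = a • A0 + b • A0 := by rw [← add_smul, hab, one_smul]
    simp only [Pi.add_apply, Pi.smul_apply, smul_eq_mul, add_smul, mul_smul,
      Finset.sum_add_distrib, smul_add, Finset.smul_sum]
    nth_rewrite 1 [h0]
    abel
  rw [e]
  exact (hu.smul ha).add (hu'.smul hb)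

theorem slice_isHyperbolic [DecidableEq ρ] (j0 : ρ) (p : MvPolynomial (σ ⊕ ρ) ℝ) (e : σ → ℝ)
    (hp : IsHyperbolic p (Sum.elim e 0)) : IsHyperbolic (slice j0 p) (Sum.elim e 0) := by
  obtain ⟨⟨d, hd⟩, hpos, hroots⟩ := hp
  refine ⟨⟨d, slice_isHomogeneous j0 p hd⟩, ?_, ?_⟩
  · rw [eval_slice]
    convert hpos using 3
    funext i
    rcases i with i | j
    · simp
    · simp
  · intro x z hz
    rw [aeval_slice] at hz
    refine hroots (Sum.elim (fun i => x (Sum.inl i)) (fun j => if j = j0 then x (Sum.inr ()) else 0))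
      z ?_
    rw [← hz]
    congr 1
    congr 1
    funext i
    rcases i with i | j
    · simp
    · by_cases h : j = j0 <;> simp [h]

theorem cone_iff [Fintype ρ] [DecidableEq ρ] (j0 : ρ) (p : MvPolynomial (σ ⊕ ρ) ℝ) (e : σ → ℝ)
    (hrot : ∀ (x : σ → ℝ) (y y' : ρ → ℝ), ∑ j, y j ^ 2 = ∑ j, y' j ^ 2 →
      eval (Sum.elim x y) p = eval (Sum.elim x y') p)
    (x : σ → ℝ) (y : ρ → ℝ) (s : ℝ) (hs : s ^ 2 = ∑ j, y j ^ 2) :
    Sum.elim x y ∈ hypCone p (Sum.elim e 0) ↔
      Sum.elim x (fun _ => s) ∈ hypCone (slice j0 p) (Sum.elim e 0) := by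
  have key : ∀ t : ℝ, eval (fun i => t * (Sum.elim e 0 : σ ⊕ ρ → ℝ) i - (Sum.elim x y) i) p =
      eval (fun i => t * (Sum.elim e 0 : σ ⊕ Unit → ℝ) i - (Sum.elim x (fun _ => s)) i)
        (slice j0 p) := by
    intro t
    rw [eval_slice]
    have e1 : (fun i => t * (Sum.elim e 0 : σ ⊕ ρ → ℝ) i - (Sum.elim x y) i) =
        Sum.elim (fun i => t * e i - x i) (fun j => - y j) := by
      funext i
      rcases i with i | j <;> simp
    rw [e1]
    have e2 : (Sum.elim (fun i => t * (Sum.elim e 0 : σ ⊕ Unit → ℝ) (Sum.inl i) -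
          (Sum.elim x (fun _ => s) : σ ⊕ Unit → ℝ) (Sum.inl i))
        (fun j => if j = j0 then t * (Sum.elim e 0 : σ ⊕ Unit → ℝ) (Sum.inr ()) -
          (Sum.elim x (fun _ => s) : σ ⊕ Unit → ℝ) (Sum.inr ()) else 0) : σ ⊕ ρ → ℝ) =
        Sum.elim (fun i => t * e i - x i) (fun j => if j = j0 then - s else 0) := by
      funext i
      rcases i with i | j <;> simp
    rw [e2]
    apply hrot
    have : ∀ j, (if j = j0 then - s else 0 : ℝ) ^ 2 = if j = j0 then s ^ 2 else 0 := by
      intro j; by_cases h : j = j0 <;> simp [h]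
    simp only [this, Finset.sum_ite_eq', Finset.mem_univ, if_true, neg_sq, hs]
  unfold hypCone
  simp only [Set.mem_ofPred_eq, key]



theorem sum_smul_fromBlocks {α ι ι' : Type} [Fintype α] (c : α → ℝ) (M : α → Matrix ι ι ℝ)
    (N : α → Matrix ι' ι' ℝ) :
    ∑ i, c i • fromBlocks (M i) 0 0 (N i) = fromBlocks (∑ i, c i • M i) 0 0 (∑ i, c i • N i) := by
  ext a b
  rcases a with a | a <;> rcases b with b | b <;> simp [Matrix.sum_apply]

theorem arrow_decomp [Fintype ρ] [DecidableEq ρ] (s : ℝ) (y : ρ → ℝ) :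
    ∑ j, y j • arrow 0 (Pi.single j 1) + s • arrow 1 0 = arrow s y := by
  ext a b
  rcases a with a | a <;> rcases b with b | b <;>
    simp [Matrix.sum_apply, arrow, Pi.single_apply, Matrix.one_apply]

theorem lift_shadow [Fintype σ] [Fintype ρ] [DecidableEq ρ] (j0 : ρ)
    (p : MvPolynomial (σ ⊕ ρ) ℝ) (e : σ → ℝ)
    (hrot : ∀ (x : σ → ℝ) (y y' : ρ → ℝ), ∑ j, y j ^ 2 = ∑ j, y' j ^ 2 →
      eval (Sum.elim x y) p = eval (Sum.elim x y') p)
    (hS : IsShadow (hypCone (slice j0 p) (Sum.elim e 0))) :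
    IsShadow (hypCone p (Sum.elim e 0)) := by
  have hconv := hS.convex
  obtain ⟨ι, κ, _, _, A0, A, B, hA0, hA, hB, hK⟩ := hS
  refine ⟨ι ⊕ (ρ ⊕ Unit), κ ⊕ Unit, inferInstance, inferInstance,
    fromBlocks A0 0 0 0,
    Sum.elim (fun i => fromBlocks (A (Sum.inl i)) 0 0 0)
      (fun j => fromBlocks 0 0 0 (arrow 0 (Pi.single j 1))),
    Sum.elim (fun k => fromBlocks (B k) 0 0 0)
      (fun _ => fromBlocks (A (Sum.inr ())) 0 0 (arrow 1 0)), ?_, ?_, ?_, ?_⟩
  · exact IsSymm.fromBlocks hA0 (by simp) (by simp [IsSymm])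
  · rintro (i | j)
    · exact IsSymm.fromBlocks (hA _) (by simp) (by simp [IsSymm])
    · exact IsSymm.fromBlocks (by simp [IsSymm]) (by simp) (arrow_isSymm _ _)
  · rintro (k | _)
    · exact IsSymm.fromBlocks (hB _) (by simp) (by simp [IsSymm])
    · exact IsSymm.fromBlocks (hA _) (by simp) (arrow_isSymm _ _)
  · have pencil : ∀ (w : σ ⊕ ρ → ℝ) (u' : κ ⊕ Unit → ℝ),
        (fromBlocks A0 0 0 0 : Matrix (ι ⊕ (ρ ⊕ Unit)) (ι ⊕ (ρ ⊕ Unit)) ℝ) +
          ∑ i, w i • (Sum.elim (fun i => fromBlocks (A (Sum.inl i)) 0 0 0)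
            (fun j => fromBlocks 0 0 0 (arrow 0 (Pi.single j 1))) :
              σ ⊕ ρ → Matrix (ι ⊕ (ρ ⊕ Unit)) (ι ⊕ (ρ ⊕ Unit)) ℝ) i +
          ∑ j, u' j • (Sum.elim (fun k => fromBlocks (B k) 0 0 0)
            (fun _ => fromBlocks (A (Sum.inr ())) 0 0 (arrow 1 0)) :
              κ ⊕ Unit → Matrix (ι ⊕ (ρ ⊕ Unit)) (ι ⊕ (ρ ⊕ Unit)) ℝ) j =
        fromBlocks (A0 + ∑ i, (Sum.elim (fun i => w (Sum.inl i)) (fun _ => u' (Sum.inr ())) :
            σ ⊕ Unit → ℝ) i • A i + ∑ k, u' (Sum.inl k) • B k) 0 0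
          (arrow (u' (Sum.inr ())) (fun j => w (Sum.inr j))) := by
      intro w u'
      simp only [Fintype.sum_sum_type, Sum.elim_inl, Sum.elim_inr, Finset.univ_unique,
        Finset.sum_singleton]
      rw [sum_smul_fromBlocks, sum_smul_fromBlocks, sum_smul_fromBlocks]
      simp only [fromBlocks_smul, fromBlocks_add, smul_zero, add_zero, zero_add,
        Finset.sum_const_zero]
      congr 1
      · abel
      · exact arrow_decomp _ _
    ext w
    have hw : w = Sum.elim (fun i => w (Sum.inl i)) (fun j => w (Sum.inr j)) := by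
      funext i; rcases i with i | j <;> rfl
    have hsum0 : 0 ≤ ∑ j, w (Sum.inr j) ^ 2 := Finset.sum_nonneg fun j _ => sq_nonneg _
    simp only [Set.mem_ofPred_eq, pencil, posSemidef_fromBlocks_diag, arrow_posSemidef_iff]
    constructor
    · intro hmem
      rw [hw, cone_iff j0 p e hrot _ _ (Real.sqrt (∑ j, w (Sum.inr j) ^ 2))
        (Real.sq_sqrt hsum0), hK] at hmem
      obtain ⟨u, hu⟩ := hmem
      refine ⟨Sum.elim u (fun _ => Real.sqrt (∑ j, w (Sum.inr j) ^ 2)), ?_, Real.sqrt_nonneg _, ?_⟩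
      · simpa using hu
      · simp only [Sum.elim_inr]
        rw [Real.sq_sqrt hsum0]
    · rintro ⟨u', hu, hs0, hys⟩
      set s := u' (Sum.inr ()) with hs
      set x : σ → ℝ := fun i => w (Sum.inl i) with hx
      set y : ρ → ℝ := fun j => w (Sum.inr j) with hy
      have h1 : (Sum.elim x (fun _ => s) : σ ⊕ Unit → ℝ) ∈ hypCone (slice j0 p) (Sum.elim e 0) := by
        rw [hK]
        exact ⟨fun k => u' (Sum.inl k), hu⟩
      have h2 : (Sum.elim x (fun _ => -s) : σ ⊕ Unit → ℝ) ∈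
          hypCone (slice j0 p) (Sum.elim e 0) := by
        have hy0 : s ^ 2 = ∑ j, (if j = j0 then s else 0 : ℝ) ^ 2 := by
          have : ∀ j, (if j = j0 then s else 0 : ℝ) ^ 2 = if j = j0 then s ^ 2 else 0 := by
            intro j; by_cases h : j = j0 <;> simp [h]
          simp only [this, Finset.sum_ite_eq', Finset.mem_univ, if_true]
        rw [← cone_iff j0 p e hrot x (fun j => if j = j0 then s else 0) (-s)
          (by rw [neg_sq]; exact hy0)]
        rw [cone_iff j0 p e hrot x (fun j => if j = j0 then s else 0) s hy0]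
        exact h1
      set s0 := Real.sqrt (∑ j, y j ^ 2) with hs0'
      have hs0s : s0 ≤ s := by
        rw [hs0']
        exact Real.sqrt_le_iff.2 ⟨hs0, hys⟩
      have hs00 : 0 ≤ s0 := Real.sqrt_nonneg _
      have h3 : (Sum.elim x (fun _ => s0) : σ ⊕ Unit → ℝ) ∈
          hypCone (slice j0 p) (Sum.elim e 0) := by
        rcases hs0.eq_or_lt with h0 | hpos
        · have : s0 = s := le_antisymm hs0s (by rw [← h0]; exact hs00)
          rw [this]; exact h1
        · have hc := hconv h1 h2 (a := (s + s0) / (2 * s)) (b := (s - s0) / (2 * s))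
            (by positivity) (div_nonneg (by linarith) (by positivity))
            (by field_simp; ring)
          convert hc using 1
          funext i
          rcases i with i | _
          · simp only [Sum.elim_inl, Pi.add_apply, Pi.smul_apply, smul_eq_mul]
            field_simp
            ring
          · simp only [Sum.elim_inr, Pi.add_apply, Pi.smul_apply, smul_eq_mul]
            field_simp
            ring
      rw [hw, cone_iff j0 p e hrot _ _ s0 (Real.sq_sqrt hsum0)]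
      exact h3



theorem slice_shadow [Fintype σ] [Fintype ρ] [DecidableEq ρ] (j0 : ρ)
    (p : MvPolynomial (σ ⊕ ρ) ℝ) (e : σ → ℝ)
    (hrot : ∀ (x : σ → ℝ) (y y' : ρ → ℝ), ∑ j, y j ^ 2 = ∑ j, y' j ^ 2 →
      eval (Sum.elim x y) p = eval (Sum.elim x y') p)
    (hS : IsShadow (hypCone p (Sum.elim e 0))) :
    IsShadow (hypCone (slice j0 p) (Sum.elim e 0)) := by
  obtain ⟨ι, κ, _, _, A0, A, B, hA0, hA, hB, hK⟩ := hS
  refine ⟨ι, κ, inferInstance, inferInstance, A0,
    Sum.elim (fun i => A (Sum.inl i)) (fun _ => A (Sum.inr j0)), B, hA0, ?_, hB, ?_⟩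
  · rintro (i | _)
    · exact hA _
    · exact hA _
  · ext v
    have hv : v = Sum.elim (fun i => v (Sum.inl i)) (fun _ => v (Sum.inr ())) := by
      funext i; rcases i with i | j <;> rfl
    have hy0 : v (Sum.inr ()) ^ 2 = ∑ j, (if j = j0 then v (Sum.inr ()) else 0 : ℝ) ^ 2 := by
      have : ∀ j, (if j = j0 then v (Sum.inr ()) else 0 : ℝ) ^ 2 =
          if j = j0 then v (Sum.inr ()) ^ 2 else 0 := by
        intro j; by_cases h : j = j0 <;> simp [h]
      simp only [this, Finset.sum_ite_eq', Finset.mem_univ, if_true]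
    conv_lhs => rw [hv]
    rw [← cone_iff j0 p e hrot _ (fun j => if j = j0 then v (Sum.inr ()) else 0) _ hy0, hK]
    simp only [Set.mem_ofPred_eq, Fintype.sum_sum_type, Sum.elim_inl, Sum.elim_inr,
      Finset.univ_unique, Finset.sum_singleton, ite_smul, zero_smul, Finset.sum_ite_eq',
      Finset.mem_univ, if_true]

end Vale.Agent.Lib.P256
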